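import Crest.Agent.Helper24.SW.L3
import Crest.Agent.Helper5.S0453.OneDim

/-!
# S0453 (row 299), WP-D1: (L3) for the colouring model, unconditional

`L3` and `L3_meanZero`: PROOF.md section 3, with the one-dimensional lemma supplied by
`Crest.Agent.Helper5.S0453.oneDim`.
-/

set_option autoImplicit false
open Finset

namespace Crest.Agent.Helper24.SW

theorem oneDimStatement : OneDimStatement :=
  fun p hp hlc hint m g => Crest.Agent.Helper5.S0453.oneDim p hp hlc hint m g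

variable {K1 K2 : Type*} [Fintype K1] [DecidableEq K1] [Fintype K2] [DecidableEq K2]

/-- **(L3) for the colouring model**: states are pairs of colourings `σ₁ : K1 → Fin 3`, `σ₂ : K2 → Fin 3`
with `|σ₁⁻¹(i)| - |σ₂⁻¹(i)| = δ i`; party `i` sees `view i σ = (σ₁⁻¹(i), σ₂⁻¹(i))`. Then
`Var (∑_i g_i(view_i)) ≤ 2 ∑_i Var (g_i(view_i))` under the uniform law on the states
(both sides multiplied by the square of the number of states). -/
theorem L3 (δ : Fin 3 → ℤ) (g : Fin 3 → Finset K1 × Finset K2 → ℝ) :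
    ((states (K1 := K1) (K2 := K2) δ).card : ℝ) * ∑ σ ∈ states δ, (∑ i, g i (view i σ)) ^ 2
        - (∑ σ ∈ states (K1 := K1) (K2 := K2) δ, ∑ i, g i (view i σ)) ^ 2
      ≤ 2 * ∑ i, (((states (K1 := K1) (K2 := K2) δ).card : ℝ) * ∑ σ ∈ states δ, g i (view i σ) ^ 2
        - (∑ σ ∈ states (K1 := K1) (K2 := K2) δ, g i (view i σ)) ^ 2) :=
  L3_of_oneDim oneDimStatement δ g

/-- mean-zero form of (L3) (= PROOF.md (2.3) on a fibre of `~_T`). -/
theorem L3_meanZero (δ : Fin 3 → ℤ) (g : Fin 3 → Finset K1 × Finset K2 → ℝ)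
    (hg : ∀ i, ∑ σ ∈ states (K1 := K1) (K2 := K2) δ, g i (view i σ) = 0) :
    ∑ σ ∈ states (K1 := K1) (K2 := K2) δ, (∑ i, g i (view i σ)) ^ 2
      ≤ 2 * ∑ σ ∈ states (K1 := K1) (K2 := K2) δ, ∑ i, g i (view i σ) ^ 2 :=
  L3_meanZero_of_oneDim oneDimStatement δ g hg

end Crest.Agent.Helper24.SW
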